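import Vale.Agent.P097.H308.TouchP
import Vale.Agent.P097.TC.Defs5

/-!
# P097 / [c] : `A5.Tou` for the constant sequence, and the Lipschitz bound of the heights
-/

set_option linter.all false

open scoped ComplexConjugate Topology
open Filter Metric Set Complex MeasureTheory

namespace Vale.Agent.P097.H308

open Vale.Agent.P097.H85 Vale.Agent.P097.H929

/-- the two-sided cone at the labels gives a Lipschitz bound of the heights over the labels -/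
theorem hL_of_cone {R : ℂ → ℝ} {S : Set ℝ} {Pt : ℝ → ℂ} {c : ℝ → ℝ}
    (Pi : ∀ u ∈ S, (Pt u).im = R u) (bd : ∃ T : ℝ, ∀ u ∈ S, |c u| ≤ T)
    (cone : ∃ K : ℝ, ∀ η > 0, ∃ δ > 0, ∀ u ∈ S, ∀ v : ℂ, ‖v‖ < δ →
      R u + c u * v.re - K * |v.im| - η * ‖v‖ ≤ R (u + v)) :
    ∃ L d₁ : ℝ, 0 < d₁ ∧ ∀ u ∈ S, ∀ u' ∈ S, |u' - u| < d₁ →
      |(Pt u').im - (Pt u).im| ≤ L * |u' - u| := by
  obtain ⟨T, hT⟩ := bd
  obtain ⟨K, hK⟩ := cone
  obtain ⟨δ, hδ, h⟩ := hK 1 one_pos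
  have key : ∀ u ∈ S, ∀ u' ∈ S, |u' - u| < δ → (Pt u).im - (Pt u').im ≤ (T + 1) * |u' - u| := by
    intro u hu u' hu' hd
    have h1 := h u hu (((u' - u : ℝ)) : ℂ) (by rw [norm_real, Real.norm_eq_abs]; exact hd)
    rw [norm_real, Real.norm_eq_abs, ofReal_re, ofReal_im, abs_zero, mul_zero] at h1
    have e1 : (u : ℂ) + (((u' - u : ℝ)) : ℂ) = (u' : ℂ) := by push_cast; ring
    rw [e1, ← Pi u hu, ← Pi u' hu'] at h1
    have e2 : -(c u * (u' - u)) ≤ T * |u' - u| := by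
      refine (neg_le_abs _).trans ?_
      rw [abs_mul]
      exact mul_le_mul_of_nonneg_right (hT u hu) (abs_nonneg _)
    linarith
  refine ⟨T + 1, δ, hδ, fun u hu u' hu' hd => ?_⟩
  rw [abs_le]
  constructor
  · have := key u hu u' hu' hd
    linarith
  · have := key u' hu' u hu (by rwa [abs_sub_comm])
    rw [abs_sub_comm u u'] at this
    linarith

section
variable {Mj Mk : Set (ℂ × ℂ)} {b H : ℝ} {A : Set ℝ} {P : ℝ → ℂ} {c : ℝ → ℝ} {y u σ s : ℝ}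

/-- compact sets of the narrow cone are eventually in the domain of the position -/
theorem LayP.ev_D {ι : Type*} {l : Filter ι} {r : ι → ℝ} (h : LayP Mj Mk b A P c y u σ s)
    (hσs : σ < s) (hr : Tendsto r l (𝓝[>] 0)) {K : Set (ℂ × ℂ)} (hK : IsCompact K)
    (hKG : K ⊆ {p | p.1.im < 0 ∧ 0 < p.2.im}) :
    ∀ᶠ n in l, ∀ p ∈ K, kpt (P u).im (c u) σ y u (r n) p ∈ A5.Dm Mj Mk := by
  have h1 := h.wj hr hK hKG
  have h2 := h.wk hr hK (fun p hp => ⟨(hKG hp).2, (hKG hp).1.trans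
    (mul_pos (by linarith) (hKG hp).2)⟩)
  have h3 : ∀ᶠ n in l, 0 < r n := hr.eventually self_mem_nhdsWithin
  filter_upwards [h1, h2, h3] with n a1 a2 a3
  intro p hp
  refine ⟨⟨a1 p hp, a2 p hp⟩, ?_⟩
  show (kpt (P u).im (c u) σ y u (r n) p).2 ≠ 0
  intro h0
  have h4 := congrArg Complex.im h0
  rw [kpt_eq] at h4
  simp only [add_im, ofReal_im, mul_im, ofReal_re, zero_im, zero_mul, add_zero, zero_add] at h4
  have := mul_pos a3 (hKG hp).2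
  linarith

/-- **`Tou` for the constant sequence** -/
theorem LayP.tou {κ : Type*} {f : κ → ℂ → ℂ → ℂ} {B : κ → Set (ℂ × ℂ)}
    {Φ : κ → ℂ × (ℂ × ℂ) → ℂ} {θ : ℂ × ℂ → ℂ} (h : LayP Mj Mk b A P c y u σ s) (hσs : σ < s)
    (hC : Comp b H f B Mj Mk (A5.Dm Mj Mk) Φ θ) :
    A5.Tou H P c u σ θ (fun _ => y) (fun _ => u) := by
  intro r hr w₀ hw hw' a δ₀ hδ₀
  obtain ⟨ε, hε, h1⟩ := touch_of_layP h hσs hC hr (fun K hK hKG => h.ev_D hσs hr hK hKG) hw hw' a hδ₀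
  refine ⟨ε, hε, ?_⟩
  filter_upwards [h1] with n hn
  rintro ⟨g, g1, g2⟩
  exact hn ⟨g, g1, fun p hp => ⟨(g2 p hp).1, (g2 p hp).2⟩⟩

end

end Vale.Agent.P097.H308
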