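import Vale.Agent.P097.H320.W5.Inst
import Vale.Agent.P097.H308.TouP

/-!
# P097 / [c] : `Comp` for the lines `n - 1`, `n`; the world and TOUCH at almost every fixed point
-/

set_option linter.all false

open scoped ComplexConjugate Topology
open Filter Metric Set Complex MeasureTheory

namespace Vale.Agent.P097.H308

open Vale.Agent.P097 Vale.Agent.P097.TA Vale.Agent.P097.H202 Vale.Agent.P097.SC
open Vale.Agent.P097.H85 Vale.Agent.P097.H929 Vale.Agent.P097.H543 Vale.Agent.P097.H456.C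
open Vale.Agent.P097.H6 Vale.Agent.P097.H320.W5

variable {κ Λ b : ℝ} {H Φ : ℂ → ℂ} {r e : ℝ} {α p : ℂ → ℂ → ℂ} {J F q Q : ℂ → ℂ}
  {e₁ c₀ : ℝ} {R : ℂ → ℝ} {A P θ : ℂ × ℂ → ℂ} {n : ℤ} {ε b₀ : ℝ}

/-- the reflected line as a function of the position and of the point -/
noncomputable def Phi (F q : ℂ → ℂ) (al pp : ℂ × ℂ → ℂ) : Bool → ℂ × (ℂ × ℂ) → ℂ
  | true, x => 2 * F x.1 - al x.2
  | false, x => 2 * q x.1 * cos (F x.1 - al x.2) - pp x.2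

/-- the two components of line `n` -/
noncomputable def LnB (A P : ℂ × ℂ → ℂ) (n : ℤ) : Bool → ℂ → ℂ → ℂ
  | true => Ln A n
  | false => Ln P n

/-- **`Comp`** for the lines `n - 1` and `n` -/
theorem comp_of {m : ℝ} {Ψ : ℂ → ℂ} {S : Set ℝ} {Pt : ℝ → ℂ} {c k : ℝ → ℝ} {y₁ y₂ s s' : ℝ}
    (hB : CC.Base κ Λ b H Φ r e α p J F q Q e₁ c₀ R A P θ)
    (G : GW R A P e₁ n ε b₀ m Ψ S Pt c k y₁ y₂ s s') {th : ℂ × ℂ → ℂ}
    (T : PsnW b F q R A P e₁ ε b₀ n th) :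
    Comp b₀ b (LnB A P n) (fun _ => Bn R e₁ ε b₀ n) (MM R A P e₁ ε b₀ n)
      (MM R A P e₁ ε b₀ (n - 1)) (A5.Dm (MM R A P e₁ ε b₀ n) (MM R A P e₁ ε b₀ (n - 1)))
      (Phi F q (Lc R A e₁ ε b₀ (n - 1)) (Lc R P e₁ ε b₀ (n - 1))) th := by
  obtain ⟨⟨hn1, hn2⟩, hR1, hR2⟩ := G.rh hB
  obtain ⟨xk1, xk2⟩ := ext_MM (n := n - 1) (b₀ := b₀) (ε := ε) hB
  have hj := jd_Ln hB hn1
  have hal : ∀ z ∈ MM R A P e₁ ε b₀ (n - 1), DifferentiableAt ℂ (Lc R A e₁ ε b₀ (n - 1)) z :=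
    fun z hz => (xk1.jd z hz.1).differentiableAt (xk1.dn.op.mem_nhds hz.1)
  have hpp : ∀ z ∈ MM R A P e₁ ε b₀ (n - 1), DifferentiableAt ℂ (Lc R P e₁ ε b₀ (n - 1)) z :=
    fun z hz => (xk2.jd z hz.2).differentiableAt (xk2.dn.op.mem_nhds hz.2)
  have hO : IsOpen {z : ℂ | |z.im| < b} := isOpen_lt (by fun_prop) continuous_const
  have hF : ∀ x : ℂ, |x.im| < b → DifferentiableAt ℂ F x :=
    fun x hx => (hB.bs.dF x hx).differentiableAt (hO.mem_nhds hx)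
  have hq : ∀ x : ℂ, |x.im| < b → DifferentiableAt ℂ q x :=
    fun x hx => (hB.bs.dq x hx).differentiableAt (hO.mem_nhds hx)
  refine ⟨fun _ => dn_Bn hB, ?_, ?_, fun z h => ⟨h true, h false⟩, ?_, ?_⟩
  · rintro (_ | _)
    · exact hj.2
    · exact hj.1
  · rintro (_ | _)
    · exact fun z hz => hz.2
    · exact fun z hz => hz.1
  · rintro (_ | _)
    · rintro ⟨x, z⟩ ⟨h1, h2⟩
      simp only at h1 h2
      have f1 : DifferentiableAt ℂ (fun y : ℂ × (ℂ × ℂ) => F y.1) (x, z) :=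
        DifferentiableAt.comp (x, z) (f := fun y : ℂ × (ℂ × ℂ) => y.1) (hF x h1)
          differentiableAt_fst
      have f2 : DifferentiableAt ℂ (fun y : ℂ × (ℂ × ℂ) => q y.1) (x, z) :=
        DifferentiableAt.comp (x, z) (f := fun y : ℂ × (ℂ × ℂ) => y.1) (hq x h1)
          differentiableAt_fst
      have f3 : DifferentiableAt ℂ
          (fun y : ℂ × (ℂ × ℂ) => Lc R A e₁ ε b₀ (n - 1) y.2) (x, z) :=
        DifferentiableAt.comp (x, z) (f := fun y : ℂ × (ℂ × ℂ) => y.2) (hal z h2)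
          differentiableAt_snd
      have f4 : DifferentiableAt ℂ
          (fun y : ℂ × (ℂ × ℂ) => Lc R P e₁ ε b₀ (n - 1) y.2) (x, z) :=
        DifferentiableAt.comp (x, z) (f := fun y : ℂ × (ℂ × ℂ) => y.2) (hpp z h2)
          differentiableAt_snd
      exact (((f2.const_mul 2).mul (f1.sub f3).ccos).sub f4).differentiableWithinAt
    · rintro ⟨x, z⟩ ⟨h1, h2⟩
      simp only at h1 h2
      have f1 : DifferentiableAt ℂ (fun y : ℂ × (ℂ × ℂ) => F y.1) (x, z) :=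
        DifferentiableAt.comp (x, z) (f := fun y : ℂ × (ℂ × ℂ) => y.1) (hF x h1)
          differentiableAt_fst
      have f3 : DifferentiableAt ℂ
          (fun y : ℂ × (ℂ × ℂ) => Lc R A e₁ ε b₀ (n - 1) y.2) (x, z) :=
        DifferentiableAt.comp (x, z) (f := fun y : ℂ × (ℂ × ℂ) => y.2) (hal z h2)
          differentiableAt_snd
      exact ((f1.const_mul 2).sub f3).differentiableWithinAt
  · rintro (_ | _)
    · exact fun z hz => (rel_of T hz.1).2.2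
    · exact fun z hz => (rel_of T hz.1).2.1

/-- the layer at almost every fixed point of the global world -/
theorem gw_ae_layP {m : ℝ} {Ψ : ℂ → ℂ} {S : Set ℝ} {Pt : ℝ → ℂ} {c k : ℝ → ℝ}
    {y₁ y₂ s s' : ℝ} (hB : CC.Base κ Λ b H Φ r e α p J F q Q e₁ c₀ R A P θ)
    (G : GW R A P e₁ n ε b₀ m Ψ S Pt c k y₁ y₂ s s') :
    ∀ᵐ e : ℝ × ℝ, e.1 ∈ Ioo y₁ y₂ → e.2 ∈ S → ∃ σ : ℝ, σ ≤ s' ∧
      LayP (MM R A P e₁ ε b₀ n) (MM R A P e₁ ε b₀ (n - 1)) b₀ S Pt c e.1 e.2 σ s := by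
  obtain ⟨-, hR1, hR2⟩ := G.rh hB
  obtain ⟨c', Λ', r', hc', hr', hd⟩ := G.drop
  obtain ⟨T, hT⟩ := G.uj.bd
  obtain ⟨L, d₁, hd₁, hL⟩ := hL_of_cone G.Pi ⟨T, fun u hu => (hT u hu).1⟩ G.cone
  have h := ae_layP (m := m) (Ψ := Ψ) (k := k) hR1 G.uj G.bm G.cR G.cc
    (fun u hu => by rw [G.Pi u hu]; exact G.bR u hu) hd₁ hL hc' hr' hd G.win
  rw [ae_iff]
  refine measure_mono_null ?_ h
  intro e he
  simp only [mem_ofPred_eq] at he ⊢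
  push Not at he
  exact ⟨he.1, he.2.1, fun ⟨σ, h1, h2⟩ => he.2.2 σ h1 h2⟩

/-- **the input `hI` of 434** : world and TOUCH (constant sequence) at almost every fixed point -/
theorem hI_of {m : ℝ} {Ψ : ℂ → ℂ} {S : Set ℝ} {Pt : ℝ → ℂ} {c k : ℝ → ℝ} {y₁ y₂ s s' : ℝ}
    (hB : CC.Base κ Λ b H Φ r e α p J F q Q e₁ c₀ R A P θ)
    (G : GW R A P e₁ n ε b₀ m Ψ S Pt c k y₁ y₂ s s') {th : ℂ × ℂ → ℂ}
    (T : PsnW b F q R A P e₁ ε b₀ n th) {K : ℝ}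
    (hK : ∀ {y₀ u₀ σ : ℝ}, u₀ ∈ S → σ < s →
      (∀ δ > 0, RegB (MM R A P e₁ ε b₀ n) b₀ S Pt c y₀ u₀ (σ - δ)) →
      (∀ δ > 0, RegB (MM R A P e₁ ε b₀ (n - 1)) b₀ S Pt c y₀ u₀ (s - δ)) →
      A5.W5 Λ b F q b₀ m Ψ (MM R A P e₁ ε b₀ n) (MM R A P e₁ ε b₀ (n - 1))
        (Wn R e₁ ε b₀ n ∩ Wne) S Pt c k K y₀ u₀ σ s (Lc R A e₁ ε b₀ (n - 1))
        (Lc R P e₁ ε b₀ (n - 1)) th J) :
    ∀ᵐ e : ℝ × ℝ, e.1 ∈ Ioo y₁ y₂ → e.2 ∈ S → ∃ σ : ℝ,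
      A5.W5 Λ b F q b₀ m Ψ (MM R A P e₁ ε b₀ n) (MM R A P e₁ ε b₀ (n - 1))
        (Wn R e₁ ε b₀ n ∩ Wne) S Pt c k K e.1 e.2 σ s (Lc R A e₁ ε b₀ (n - 1))
        (Lc R P e₁ ε b₀ (n - 1)) th J ∧
      A5.Tou b Pt c e.2 σ th (fun _ => e.1) (fun _ => e.2) := by
  filter_upwards [gw_ae_layP hB G] with e he h1 h2
  obtain ⟨σ, hσ, h3⟩ := he h1 h2
  exact ⟨σ, hK h2 (hσ.trans_lt G.ss) h3.regj h3.regk,
    h3.tou (hσ.trans_lt G.ss) (comp_of hB G T)⟩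

/-- TOUCH along every sequence at a point of the thin layer -/
theorem tou_lay {m : ℝ} {Ψ : ℂ → ℂ} {S : Set ℝ} {Pt : ℝ → ℂ} {c k : ℝ → ℝ} {y₁ y₂ s s' : ℝ}
    (hB : CC.Base κ Λ b H Φ r e α p J F q Q e₁ c₀ R A P θ)
    (G : GW R A P e₁ n ε b₀ m Ψ S Pt c k y₁ y₂ s s') {th : ℂ × ℂ → ℂ}
    (T : PsnW b F q R A P e₁ ε b₀ n th) {y₀ u₀ σ : ℝ} (hσ : σ < s)
    (h : Lay (MM R A P e₁ ε b₀ n) (MM R A P e₁ ε b₀ (n - 1)) b₀ S Pt c y₀ u₀ σ s)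
    {y u : ℕ → ℝ} (hS : A5.Sq S y₀ u₀ y u) : A5.Tou b Pt c u₀ σ th y u := by
  intro r hr w₀ hw hw' a δ₀ hδ₀
  have hu : ∀ᶠ n in atTop, u n ∈ S := Eventually.of_forall hS.uA
  obtain ⟨ε', hε', h1⟩ := touch_of_lay h hσ (comp_of hB G T) hS.yt hS.ut hu hr (by
    intro K hK hKG
    have a1 := h.wj hS.yt hS.ut hu hr hK hKG
    have a2 := h.wk hS.yt hS.ut hu hr hK (fun p hp => ⟨(hKG hp).2, (hKG hp).1.trans
      (mul_pos (by linarith) (hKG hp).2)⟩)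
    have a3 : ∀ᶠ n in atTop, 0 < r n := hr.eventually self_mem_nhdsWithin
    filter_upwards [a1, a2, a3] with n b1 b2 b3
    intro p hp
    refine ⟨⟨b1 p hp, b2 p hp⟩, ?_⟩
    show (kpt (Pt (u n)).im (c u₀) σ (y n) (u n) (r n) p).2 ≠ 0
    intro h0
    have h4 := congrArg Complex.im h0
    rw [kpt_eq] at h4
    simp only [add_im, ofReal_im, mul_im, ofReal_re, zero_im, zero_mul, add_zero, zero_add] at h4
    have := mul_pos b3 (hKG hp).2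
    linarith) hw hw' a hδ₀
  refine ⟨ε', hε', ?_⟩
  filter_upwards [h1] with n hn
  rintro ⟨g, g1, g2⟩
  exact hn ⟨g, g1, fun p hp => ⟨(g2 p hp).1, (g2 p hp).2⟩⟩

end Vale.Agent.P097.H308
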