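import Vale.Agent.P097.H308.HI
import Vale.Agent.P097.H434.WallsAe

/-!
# P097 / [c] : `H434.HIae` (world and TOUCH at almost every fixed point) from the growth field
-/

set_option linter.all false

open scoped ComplexConjugate Topology
open Filter Metric Set Complex MeasureTheory

namespace Vale.Agent.P097.H308

open Vale.Agent.P097 Vale.Agent.P097.H6 Vale.Agent.P097.H320.W5

/-- **`HIae`** from the growth of the curve -/
theorem hIae_of (hg : ∀ {κ Λ b : ℝ} {H Φ : ℂ → ℂ} {r e : ℝ} {α p : ℂ → ℂ → ℂ} {J F q : ℂ → ℂ},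
    CC.En κ Λ b H Φ r e α p J F q → A5.Gro b F q) : H434.HIae := by
  intro κ Λ b H Φ r e α p J F q Q e₁ c₀ R A P θ he hc hB n ε b₀ m Ψ S Pt c k y₁ y₂ s s' G
  obtain ⟨K, th, T, hth, hK⟩ := w5_of hB G (hg hB.en)
  exact ⟨Wn R e₁ ε b₀ n ∩ Wne, K, Lc R A e₁ ε b₀ (n - 1), Lc R P e₁ ε b₀ (n - 1), th, J, hth,
    hI_of hB G T hK⟩

/-- row N1 from `PW`, `PAI` and the growth -/
theorem wallsAe_of (hW : A5.PW) (hA : A5.PAI)
    (hg : ∀ {κ Λ b : ℝ} {H Φ : ℂ → ℂ} {r e : ℝ} {α p : ℂ → ℂ → ℂ} {J F q : ℂ → ℂ},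
      CC.En κ Λ b H Φ r e α p J F q → A5.Gro b F q) : H505.WallsAe :=
  H434.wallsAe_of hW hA (hIae_of hg)

end Vale.Agent.P097.H308
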