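import Vale.Agent.P097.H308.TouchAe

/-!
# P097 / [c] : the blown up world at a fixed point: `LayP.wj`, `LayP.wk`, `LayP.tt`

Same conclusions as `H929.Lay.wj`, `wk`, `tt` for the constant sequence `(y, u)`, `r → 0+`.
-/

set_option linter.all false

open scoped ComplexConjugate Topology
open Filter Metric Set Complex MeasureTheory

namespace Vale.Agent.P097.H308

open Vale.Agent.P097.H85 Vale.Agent.P097.H929

/-- **Blown up touch at one point.** -/
theorem blow_touchP {M : Set (ℂ × ℂ)} {b : ℝ} {A : Set ℝ} {P : ℝ → ℂ} {c : ℝ → ℝ} {y u σ : ℝ}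
    (hM : Dn b M) (hu : u ∈ A) (hR : ContinuousOn (fun u => (P u).im) A)
    (hc : ContinuousOn c A) (hb : b < (P u).im)
    (hreg : ∀ δ > 0, RegB M b A P c y u (σ - δ)) (ht : TchP M b (P u).im (c u) y u σ)
    {z : ℂ × ℂ} (hz : 0 < z.2.im) (hz' : |z.2.re| ≤ z.2.im / 2)
    (hze : z.1.im = c u * z.2.re + σ * z.2.im) {ε : ℝ} (hε : 0 < ε) :
    ∃ r₀ > 0, ∀ r : ℝ, 0 < r → r < r₀ →
      ∃ p : ℂ × ℂ, ‖p.1 - z.1‖ < ε ∧ ‖p.2 - z.2‖ < ε ∧ bpt (P u).im y u r p ∉ M := by
  set H : ℝ := z.2.im with hH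
  set C : ℝ := 1 + |c u| + |σ| with hC
  have hC1 : 1 ≤ C := by
    have := abs_nonneg (c u)
    have := abs_nonneg σ
    rw [hC]; linarith
  set ε' : ℝ := min (ε / 8) (1 / 2) with hε'
  have hε'0 : 0 < ε' := by positivity
  have hε'8 : ε' ≤ ε / 8 := min_le_left _ _
  set η : ℝ := min (1 / 2) (ε' / ((4 * C + 4) * H)) with hη
  have hη0 : 0 < η := by positivity
  have hη2 : η ≤ 1 / 2 := min_le_left _ _
  have hη1 : η ≤ 1 := by linarith
  have hηH : (4 * C + 4) * (η * H) ≤ ε' := by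
    have h1 : η ≤ ε' / ((4 * C + 4) * H) := min_le_right _ _
    rw [le_div_iff₀ (by positivity)] at h1
    linarith
  have hηHp : 0 < η * H := by positivity
  have hηHs : η * H ≤ ε' / 4 := by
    have : 0 < C * (η * H) := by positivity
    nlinarith
  set D : ℝ := |z.1.re| + (|c u| + |σ|) * H with hD
  obtain ⟨r₁, hr₁, htt⟩ := ht η hη0 hη1 (D / H)
  set K : Set (ℂ × ℂ) := (closedBall z.1 ε ×ˢ closedBall z.2 (η * H)) ∩
    {p : ℂ × ℂ | p.2.im = H ∧ p.1.im ≤ c u * p.2.re + σ * p.2.im - ε'} with hKdef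
  have hKc : IsCompact K := by
    have h1 : IsCompact (closedBall z.1 ε ×ˢ closedBall z.2 (η * H)) :=
      (isCompact_closedBall _ _).prod (isCompact_closedBall _ _)
    have h2 : IsClosed {p : ℂ × ℂ | p.2.im = H ∧ p.1.im ≤ c u * p.2.re + σ * p.2.im - ε'} := by
      have c1 : Continuous fun p : ℂ × ℂ => p.2.im := by fun_prop
      have c2 : Continuous fun p : ℂ × ℂ => p.1.im := by fun_prop
      have c3 : Continuous fun p : ℂ × ℂ => c u * p.2.re + σ * p.2.im - ε' := by fun_prop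
      exact (isClosed_eq c1 continuous_const).inter (isClosed_le c2 c3)
    exact h1.inter_right h2
  have hKG : K ⊆ Gc (c u) σ := by
    rintro p ⟨-, h5, h6⟩
    exact ⟨by rw [h5]; exact hz, by linarith⟩
  obtain ⟨d₂, hd₂, r₂, hr₂, hdom⟩ := blow_dom hu hR hc hb hreg hKc hKG
  refine ⟨min (r₁ / H) r₂, by positivity, ?_⟩
  intro r hr hrr
  have k5 : r * H < r₁ := by
    have := hrr.trans_le (min_le_left _ _)
    rwa [lt_div_iff₀ hz] at this
  have k6 := hrr.trans_le (min_le_right _ _)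
  set yc : ℝ := y + r * (z.1.re + c u * H - σ * z.2.re) with hyc
  have hycd : |yc - y| ≤ D / H * (r * H) := by
    have e1 : yc - y = r * (z.1.re + c u * H - σ * z.2.re) := by rw [hyc]; ring
    have e2 : D / H * (r * H) = r * D := by field_simp
    rw [e1, e2, abs_mul, abs_of_pos hr]
    apply mul_le_mul_of_nonneg_left _ hr.le
    have f1 := abs_sub (z.1.re + c u * H) (σ * z.2.re)
    have f2 := abs_add_le z.1.re (c u * H)
    have f3 : |c u * H| = |c u| * H := by rw [abs_mul, abs_of_pos hz]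
    have f4 : |σ * z.2.re| ≤ |σ| * H := by
      rw [abs_mul]
      exact mul_le_mul_of_nonneg_left (by linarith) (abs_nonneg _)
    have f5 : (|c u| + |σ|) * H = |c u| * H + |σ| * H := by ring
    rw [hD, f5]
    linarith
  obtain ⟨t, w, g1, g2, g3, g4, g5, g6⟩ := htt (r * H) (by positivity) k5 yc hycd
    (u + r * z.2.re) (by
      have : u + r * z.2.re - u = r * z.2.re := by ring
      rw [this, abs_mul, abs_of_pos hr]
      have := mul_le_mul_of_nonneg_left hz' hr.le
      linarith)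
  set p : ℂ × ℂ := ((t - y - ((P u).im : ℂ) * I) / r, (w - u) / r) with hp
  have hrc : (r : ℂ) ≠ 0 := by exact_mod_cast hr.ne'
  have hbp : bpt (P u).im y u r p = (t, w) := by
    unfold bpt
    rw [hp]
    ext
    · simp only
      field_simp
      ring
    · simp only
      field_simp
      ring
  have b1 := bpt_re1 (P u).im y u r p
  have b2 := bpt_im1 (P u).im y u r p
  have b3 := bpt_re2 (P u).im y u r p
  have b4 := bpt_im2 (P u).im y u r p
  rw [hbp] at b1 b2 b3 b4
  simp only at b1 b2 b3 b4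
  have p2i : p.2.im = H := by
    have : r * p.2.im = r * H := by rw [← b4, g1]
    exact mul_left_cancel₀ hr.ne' this
  have p2r : |p.2.re - z.2.re| ≤ η * H := by
    have e1 : w.re - (u + r * z.2.re) = r * (p.2.re - z.2.re) := by rw [b3]; ring
    rw [e1, abs_mul, abs_of_pos hr] at g2
    have e2 : η * (r * H) = r * (η * H) := by ring
    rw [e2] at g2
    exact (lt_of_mul_lt_mul_left g2 hr.le).le
  have hσC : |σ| * (η * H) ≤ C * (η * H) := by
    apply mul_le_mul_of_nonneg_right _ hηHp.le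
    have := abs_nonneg (c u)
    rw [hC]; linarith
  have hcC : |c u| * (η * H) ≤ C * (η * H) := by
    apply mul_le_mul_of_nonneg_right _ hηHp.le
    have := abs_nonneg σ
    rw [hC]; linarith
  have hCη : 4 * (C * (η * H)) ≤ ε' := by linarith
  have p1r : |p.1.re - z.1.re| ≤ ε' / 2 := by
    have e1 : t.re - (yc - c u * (r * H) + σ * (w.re - u)) =
        r * ((p.1.re - z.1.re) - σ * (p.2.re - z.2.re)) := by
      rw [b1, b3, hyc]; ring
    rw [e1, abs_mul, abs_of_pos hr] at g3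
    have e2 : η * (r * H) = r * (η * H) := by ring
    rw [e2] at g3
    have e3 := (lt_of_mul_lt_mul_left g3 hr.le).le
    have e4 := abs_add_le ((p.1.re - z.1.re) - σ * (p.2.re - z.2.re)) (σ * (p.2.re - z.2.re))
    have e5 : (p.1.re - z.1.re) - σ * (p.2.re - z.2.re) + σ * (p.2.re - z.2.re) =
      p.1.re - z.1.re := by ring
    rw [e5] at e4
    have e6 : |σ * (p.2.re - z.2.re)| ≤ |σ| * (η * H) := by
      rw [abs_mul]
      exact mul_le_mul_of_nonneg_left p2r (abs_nonneg _)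
    linarith
  have hc0r : |c u * (p.2.re - z.2.re)| ≤ ε' / 4 := by
    rw [abs_mul]
    have := mul_le_mul_of_nonneg_left p2r (abs_nonneg (c u))
    linarith
  have pup : p.1.im < z.1.im + ε' := by
    have e1 : (P u).im + c u * (w.re - u) + σ * (r * H) + η * (r * H) =
      (P u).im + r * (c u * p.2.re + σ * H + η * H) := by rw [b3]; ring
    rw [b2, e1] at g5
    have e2 : r * p.1.im < r * (c u * p.2.re + σ * H + η * H) := by linarith
    have e3 := lt_of_mul_lt_mul_left e2 hr.le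
    have e4 : c u * p.2.re = c u * z.2.re + c u * (p.2.re - z.2.re) := by ring
    have e7 := (abs_le.1 hc0r).2
    rw [hze]
    linarith
  have plow : c u * p.2.re + σ * H - ε' < p.1.im := by
    by_contra hcon
    push Not at hcon
    set v : ℝ := c u * p.2.re + σ * H - ε' with hv
    have hvz : v - z.1.im = c u * (p.2.re - z.2.re) - ε' := by rw [hv, hze]; ring
    have hK' : (((p.1.re : ℝ) : ℂ) + (v : ℂ) * I, p.2) ∈ K := by
      refine ⟨⟨?_, ?_⟩, p2i, ?_⟩
      · rw [mem_closedBall, dist_eq_norm]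
        refine (Complex.norm_le_abs_re_add_abs_im _).trans ?_
        have f1 : ((((p.1.re : ℝ) : ℂ) + (v : ℂ) * I) - z.1).re = p.1.re - z.1.re := by simp
        have f2 : ((((p.1.re : ℝ) : ℂ) + (v : ℂ) * I) - z.1).im = v - z.1.im := by simp
        simp only
        rw [f1, f2, hvz]
        have f3 := abs_sub (c u * (p.2.re - z.2.re)) ε'
        rw [abs_of_pos hε'0] at f3
        linarith
      · rw [mem_closedBall, dist_eq_norm]
        refine (Complex.norm_le_abs_re_add_abs_im _).trans ?_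
        simp only
        rw [sub_re, sub_im, p2i, ← hH, sub_self, abs_zero, add_zero]
        exact p2r
      · simp only
        rw [p2i, hv]
        simp
    have hin := hdom u hu (by simpa using hd₂) y (by simpa using hd₂) r hr k6 _ hK'
    have e1 : bpt (P u).im y u r (((p.1.re : ℝ) : ℂ) + (v : ℂ) * I, p.2) =
        ((t.re : ℂ) + (((P u).im + r * v : ℝ) : ℂ) * I, w) := by
      rw [Prod.ext_iff]
      constructor
      · apply Complex.ext
        · rw [bpt_re1, b1]; simp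
        · rw [bpt_im1]; simp
      · have : (bpt (P u).im y u r (((p.1.re : ℝ) : ℂ) + (v : ℂ) * I, p.2)).2 =
          (bpt (P u).im y u r p).2 := rfl
        rw [this, hbp]
    rw [e1] at hin
    have hd := hM.down _ _ t.im hin g4 (by
      simp only [add_im, ofReal_im, mul_im, ofReal_re, I_im, mul_one, I_re, mul_zero, add_zero,
        zero_add]
      rw [b2]
      have := mul_le_mul_of_nonneg_left hcon hr.le
      linarith)
    apply g6
    have e2 : (((((t.re : ℂ) + (((P u).im + r * v : ℝ) : ℂ) * I)).re : ℂ) + t.im * I) = t := by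
      apply Complex.ext
      · simp
      · simp
    rwa [e2] at hd
  refine ⟨p, ?_, ?_, by rw [hbp]; exact g6⟩
  · refine (Complex.norm_le_abs_re_add_abs_im _).trans_lt ?_
    rw [sub_re, sub_im]
    have e1 : |p.1.im - z.1.im| ≤ 2 * ε' := by
      rw [abs_le]
      constructor
      · have e2 := (abs_le.1 hc0r).1
        have e3 : c u * p.2.re + σ * H = z.1.im + c u * (p.2.re - z.2.re) := by
          rw [hze]; ring
        linarith
      · linarith
    linarith
  · refine (Complex.norm_le_abs_re_add_abs_im _).trans_lt ?_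
    rw [sub_re, sub_im, p2i, ← hH, sub_self, abs_zero, add_zero]
    linarith

section
variable {Mj Mk : Set (ℂ × ℂ)} {b : ℝ} {A : Set ℝ} {P : ℝ → ℂ} {c : ℝ → ℝ} {y u σ s : ℝ}
variable {ι : Type*} {l : Filter ι} {r : ι → ℝ}

/-- (Wj) -/
theorem LayP.wj (h : LayP Mj Mk b A P c y u σ s) (hr : Tendsto r l (𝓝[>] 0))
    {K : Set (ℂ × ℂ)} (hK : IsCompact K) (hKG : K ⊆ {p | p.1.im < 0 ∧ 0 < p.2.im}) :
    ∀ᶠ n in l, ∀ p ∈ K, kpt (P u).im (c u) σ y u (r n) p ∈ Mj := by
  have hK' : IsCompact (lsh (c u) σ '' K) := hK.image (continuous_lsh _ _)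
  have hKG' : lsh (c u) σ '' K ⊆ Gc (c u) σ := by
    rintro _ ⟨p, hp, rfl⟩
    refine ⟨(hKG hp).2, ?_⟩
    rw [lsh_im]
    have := (hKG hp).1
    show p.1.im + c u * p.2.re + σ * p.2.im < c u * p.2.re + σ * p.2.im
    linarith
  obtain ⟨d, hd, r₀, hr₀, hb⟩ := blow_dom h.uA h.cR h.cc h.hb h.regj hK' hKG'
  filter_upwards [hr.eventually (Ioo_mem_nhdsGT hr₀)] with n hn
  intro p hp
  exact hb u h.uA (by simpa using hd) y (by simpa using hd) (r n) hn.1 hn.2 _
    (mem_image_of_mem _ hp)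

/-- (Wk) -/
theorem LayP.wk (h : LayP Mj Mk b A P c y u σ s) (hr : Tendsto r l (𝓝[>] 0))
    {K : Set (ℂ × ℂ)} (hK : IsCompact K)
    (hKG : K ⊆ {p | 0 < p.2.im ∧ p.1.im < (s - σ) * p.2.im}) :
    ∀ᶠ n in l, ∀ p ∈ K, kpt (P u).im (c u) σ y u (r n) p ∈ Mk := by
  have hK' : IsCompact (lsh (c u) σ '' K) := hK.image (continuous_lsh _ _)
  have hKG' : lsh (c u) σ '' K ⊆ Gc (c u) s := by
    rintro _ ⟨p, hp, rfl⟩
    refine ⟨(hKG hp).1, ?_⟩
    rw [lsh_im]
    have := (hKG hp).2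
    show p.1.im + c u * p.2.re + σ * p.2.im < c u * p.2.re + s * p.2.im
    linarith
  obtain ⟨d, hd, r₀, hr₀, hb⟩ := blow_dom h.uA h.cR h.cc h.hb h.regk hK' hKG'
  filter_upwards [hr.eventually (Ioo_mem_nhdsGT hr₀)] with n hn
  intro p hp
  exact hb u h.uA (by simpa using hd) y (by simpa using hd) (r n) hn.1 hn.2 _
    (mem_image_of_mem _ hp)

/-- (TT) -/
theorem LayP.tt (h : LayP Mj Mk b A P c y u σ s) (hr : Tendsto r l (𝓝[>] 0))
    {p : ℂ × ℂ} (hp1 : p.1.im = 0) (hp2 : 0 < p.2.im) (hp3 : |p.2.re| ≤ p.2.im / 2)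
    {ε : ℝ} (hε : 0 < ε) :
    ∀ᶠ n in l, ∃ p' : ℂ × ℂ, ‖p'.1 - p.1‖ < ε ∧ ‖p'.2 - p.2‖ < ε ∧
      kpt (P u).im (c u) σ y u (r n) p' ∉ Mj := by
  set C : ℝ := ‖(I * (c u : ℂ) + σ)‖ with hC
  have hC0 : 0 ≤ C := norm_nonneg _
  set ε' : ℝ := ε / (2 * (1 + C)) with hε'
  have hε'0 : 0 < ε' := by positivity
  have hε'1 : (1 + C) * ε' = ε / 2 := by rw [hε']; field_simp
  have hε'2 : ε' ≤ ε / 2 := by nlinarith
  obtain ⟨r₀, hr₀, hb⟩ := blow_touchP h.dn h.uA h.cR h.cc h.hb h.regj h.tch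
    (z := lsh (c u) σ p) hp2 hp3 (by
      rw [lsh_im, hp1]
      show 0 + c u * p.2.re + σ * p.2.im = c u * p.2.re + σ * p.2.im
      ring) hε'0
  filter_upwards [hr.eventually (Ioo_mem_nhdsGT hr₀)] with n hn
  obtain ⟨p', h1, h2, h3⟩ := hb (r n) hn.1 hn.2
  refine ⟨(p'.1 - (I * (c u : ℂ) + σ) * p'.2, p'.2), ?_, ?_, ?_⟩
  · have e1 : p'.1 - (I * (c u : ℂ) + σ) * p'.2 - p.1 =
        (p'.1 - (lsh (c u) σ p).1) - (I * (c u : ℂ) + σ) * (p'.2 - (lsh (c u) σ p).2) := by
      simp only [lsh]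
      ring
    simp only
    rw [e1]
    have e2 := norm_sub_le (p'.1 - (lsh (c u) σ p).1)
      ((I * (c u : ℂ) + σ) * (p'.2 - (lsh (c u) σ p).2))
    rw [norm_mul, ← hC] at e2
    have e3 := mul_le_mul_of_nonneg_left h2.le hC0
    linarith
  · exact h2.trans_le (hε'2.trans (by linarith))
  · have e1 : kpt (P u).im (c u) σ y u (r n) (p'.1 - (I * (c u : ℂ) + σ) * p'.2, p'.2) =
        bpt (P u).im y u (r n) p' := by
      rw [kpt_eq]
      simp only [bpt]
      ext
      · simp only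
        ring
      · rfl
    rw [e1]
    exact h3

/-- the height stays above `b` -/
theorem LayP.ev_b (h : LayP Mj Mk b A P c y u σ s) (hr : Tendsto r l (𝓝[>] 0)) (C : ℝ) :
    ∀ᶠ n in l, b ≤ (P u).im + r n * C := by
  have h3 : Tendsto (fun n => r n * C) l (𝓝 (0 * C)) :=
    (hr.mono_right nhdsWithin_le_nhds).mul_const C
  rw [zero_mul] at h3
  have h4 := h3.const_add (P u).im
  rw [add_zero] at h4
  exact (h4.eventually (lt_mem_nhds h.hb)).mono fun _ hn => hn.le

end

end Vale.Agent.P097.H308
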