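import Vale.Agent.P097.H308.HIae
import Vale.Agent.P097.H74.NN
import Vale.Agent.P097.H83.AI.Pai

/-!
# P097 / [c] : `H6.OneTypeL` from `PW`, `PT` and the growth field
-/

set_option linter.all false

open scoped ComplexConjugate Topology
open Filter Metric Set Complex MeasureTheory

namespace Vale.Agent.P097.H308

open Vale.Agent.P097 Vale.Agent.P097.H6 Vale.Agent.P097.H320.W5

/-- the growth field of case [c] -/
def GroE : Prop := ∀ {κ Λ b : ℝ} {H Φ : ℂ → ℂ} {r e : ℝ} {α p : ℂ → ℂ → ℂ} {J F q : ℂ → ℂ},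
  CC.En κ Λ b H Φ r e α p J F q → A5.Gro b F q

/-- rows W5-INST and TOUCH of 74 -/
theorem inst_of (hg : GroE) : H74.Inst := by
  intro κ Λ b H Φ r e α p J F q Q e₁ c₀ R A P θ he hc hB n ε b₀ m Ψ S Pt c k y₁ y₂ s s' G
  obtain ⟨K, th, T, hth, hK⟩ := w5_of hB G (hg hB.en)
  exact ⟨K, Lc R A e₁ ε b₀ (n - 1), Lc R P e₁ ε b₀ (n - 1), th, hth, fun {y₀ u₀ σ} hσ hL =>
    ⟨hK hL.u0 (hσ.trans_lt G.ss) hL.regj hL.regk, fun y u hS =>
      tou_lay hB G T (hσ.trans_lt G.ss) hL hS⟩⟩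

/-- **`OneTypeL` from `PW`, `PT`** (PAI = 83's theorem) -/
theorem oneTypeL_of (hW : A5.PW) (hT : A5.PT) (hg : GroE) : H6.OneTypeL :=
  have hWl : H505.WallsAe := wallsAe_of hW H83.AI.pai hg
  H505.oneTypeL_of hWl (H74.noNestV_of (inst_of hg) hWl hW H83.AI.pai hT)

end Vale.Agent.P097.H308
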