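import Vale.Agent.P097.H929.World
import Vale.Agent.P097.H410.Poro

/-!
# P097 / [c] : the blown up world at almost every fixed point

`LayP` = the thin layer data of `H929.Lay` at one fixed point `(y, u)`: exact slope `σ` and touch at
all small scales.  It holds at almost every point of `(y₁, y₂) × A` (two-dimensional measure, no
continuity of the exact slope is used): `ae_layP`.
-/

set_option linter.all false

open scoped ComplexConjugate Topology
open Filter Metric Set Complex MeasureTheory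

namespace Vale.Agent.P097.H308

open Vale.Agent.P097.H85 Vale.Agent.P097.H929

/-- touch at the single point `(y, u)`, at all small scales -/
def TchP (M : Set (ℂ × ℂ)) (b R c y u σ : ℝ) : Prop :=
  ∀ η : ℝ, 0 < η → η ≤ 1 → ∀ C : ℝ, ∃ r₀ > 0, ∀ h : ℝ, 0 < h → h < r₀ → ∀ yc : ℝ,
    |yc - y| ≤ C * h → ∀ x₀ : ℝ, |x₀ - u| ≤ h / 2 →
    ∃ t w : ℂ, w.im = h ∧ |w.re - x₀| < η * h ∧
      |t.re - (yc - c * h + σ * (w.re - u))| < η * h ∧ b < t.im ∧
      t.im < R + c * (w.re - u) + σ * h + η * h ∧ (t, w) ∉ M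

/-- the layer at one fixed point -/
structure LayP (Mj Mk : Set (ℂ × ℂ)) (b : ℝ) (A : Set ℝ) (P : ℝ → ℂ) (c : ℝ → ℝ)
    (y u σ s : ℝ) : Prop where
  dn : Dn b Mj
  uA : u ∈ A
  cR : ContinuousOn (fun u => (P u).im) A
  cc : ContinuousOn c A
  hb : b < (P u).im
  regj : ∀ δ > 0, RegB Mj b A P c y u (σ - δ)
  regk : ∀ δ > 0, RegB Mk b A P c y u (s - δ)
  tch : TchP Mj b (P u).im (c u) y u σ

/-- change of the centre of a ball over the edge -/
theorem tchP_of {M : Set (ℂ × ℂ)} {b m : ℝ} {Ψ : ℂ → ℂ} {A : Set ℝ} {P : ℝ → ℂ} {c k : ℝ → ℝ}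
    (hM : RH b M) (hU : CmpU M b m Ψ A P c k) (hbm : b < m)
    (hR : ContinuousOn (fun u => (P u).im) A) (hc : ContinuousOn c A) {y u σ : ℝ} (hu : u ∈ A)
    {L d₁ : ℝ} (hd₁ : 0 < d₁)
    (hL : ∀ u' ∈ A, |u' - u| < d₁ → |(P u').im - (P u).im| ≤ L * |u' - u|)
    (hreg : ∀ δ > 0, RegB M b A P c y u (σ - δ)) {F : ℚ → Set (ℝ × ℝ)}
    (hF : ∀ q, ∀ p ∈ F q, p.2 ∈ A ∧ ¬ RegB M b A P c p.1 p.2 q)
    (hmeet : ∀ q : ℚ, σ < q → ∀ c' C' : ℝ, 0 < c' → 0 ≤ C' → ∀ᶠ r in 𝓝[>] (0 : ℝ),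
      ∀ x : ℝ × ℝ, dist x (y, u) ≤ C' * r → (ball x (c' * r) ∩ F q).Nonempty) :
    TchP M b (P u).im (c u) y u σ := by
  intro η hη hη1 C
  obtain ⟨d, hd, r₀, hr₀, htr⟩ := touch_reg hM hU hbm hR hc hreg (by positivity : 0 < η / 2)
    (by linarith)
  obtain ⟨q, hq1, hq2⟩ := exists_rat_btwn
    (show σ < σ + (η / 2) ^ 3 / 2000000 from lt_add_of_pos_right _ (by positivity))
  obtain ⟨d₂, hd₂, hc2⟩ := Metric.continuousOn_iff.1 hc u hu (η / 16) (by positivity)
  set T : ℝ := 1 + |σ| + |L| + |c u| with hT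
  have hT1 : 1 ≤ T := by
    have := abs_nonneg σ
    have := abs_nonneg L
    have := abs_nonneg (c u)
    rw [hT]; linarith
  have hT0 : 0 < T := by linarith
  set c' : ℝ := η / (16 * T) with hc'
  have hc'0 : 0 < c' := by positivity
  have hc'T : T * c' = η / 16 := by rw [hc']; field_simp
  have hc1 : c' ≤ η / 16 := by nlinarith
  have hcσ : |σ| * c' ≤ η / 16 := by
    rw [← hc'T]
    apply mul_le_mul_of_nonneg_right _ hc'0.le
    have := abs_nonneg L
    have := abs_nonneg (c u)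
    rw [hT]; linarith
  have hcL : |L| * c' ≤ η / 16 := by
    rw [← hc'T]
    apply mul_le_mul_of_nonneg_right _ hc'0.le
    have := abs_nonneg σ
    have := abs_nonneg (c u)
    rw [hT]; linarith
  have hcc : |c u| * c' ≤ η / 16 := by
    rw [← hc'T]
    apply mul_le_mul_of_nonneg_right _ hc'0.le
    have := abs_nonneg σ
    have := abs_nonneg L
    rw [hT]; linarith
  set C' : ℝ := |C| with hC'
  have hC'0 : 0 ≤ C' := abs_nonneg _
  have hm := hmeet q hq1 c' C' hc'0 hC'0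
  rw [eventually_nhdsWithin_iff, Metric.eventually_nhds_iff] at hm
  obtain ⟨r₁, hr₁, hm⟩ := hm
  have hCc : 0 < C' + c' := by linarith
  refine ⟨min (min r₀ r₁) (min (d / (C' + c')) (min (d₁ / c') (d₂ / c'))), by positivity, ?_⟩
  intro h hh hhr yc hyc x₀ hx₀
  have g1 : h < r₀ := hhr.trans_le ((min_le_left _ _).trans (min_le_left _ _))
  have g2 : h < r₁ := hhr.trans_le ((min_le_left _ _).trans (min_le_right _ _))
  have g3 : h * (C' + c') < d := by
    have := hhr.trans_le ((min_le_right _ _).trans (min_le_left _ _))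
    rwa [lt_div_iff₀ hCc] at this
  have g4 : h * c' < d₁ := by
    have := hhr.trans_le ((min_le_right _ _).trans ((min_le_right _ _).trans (min_le_left _ _)))
    rwa [lt_div_iff₀ hc'0] at this
  have g5 : h * c' < d₂ := by
    have := hhr.trans_le ((min_le_right _ _).trans ((min_le_right _ _).trans (min_le_right _ _)))
    rwa [lt_div_iff₀ hc'0] at this
  by_contra hcon
  push Not at hcon
  have hycC : |yc - y| ≤ C' * h :=
    hyc.trans (mul_le_mul_of_nonneg_right (le_abs_self _) hh.le)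
  have hdh : dist h 0 < r₁ := by
    rw [dist_zero_right, Real.norm_eq_abs, abs_of_pos hh]
    exact g2
  obtain ⟨⟨yc', u'⟩, hp1, hp2⟩ := hm hdh hh (yc, u) (by
    rw [Prod.dist_eq, dist_self, Real.dist_eq]
    exact max_le hycC (by positivity))
  obtain ⟨hu', hnr⟩ := hF q _ hp2
  simp only at hu' hnr
  rw [mem_ball, Prod.dist_eq, max_lt_iff, Real.dist_eq, Real.dist_eq] at hp1
  obtain ⟨k1, k2⟩ := hp1
  simp only at k1 k2
  have k2' : |u - u'| < c' * h := by rw [abs_sub_comm]; exact k2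
  have hcu := hc2 u' hu' (by rw [Real.dist_eq]; linarith)
  rw [Real.dist_eq] at hcu
  have hLu := hL u' hu' (by linarith)
  have hcnn : 0 ≤ |C| := abs_nonneg _
  have e0 : L * |u' - u| ≤ η / 16 * h := by
    have f1 : L * |u' - u| ≤ |L| * |u' - u| :=
      mul_le_mul_of_nonneg_right (le_abs_self _) (abs_nonneg _)
    have f2 : |L| * |u' - u| ≤ |L| * (c' * h) := mul_le_mul_of_nonneg_left k2.le (abs_nonneg _)
    have f3 : |L| * (c' * h) = |L| * c' * h := by ring
    have f4 := mul_le_mul_of_nonneg_right hcL hh.le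
    linarith
  have e1 : |c u' - c u| * h ≤ η / 16 * h := mul_le_mul_of_nonneg_right hcu.le hh.le
  have e2 : |σ * (u - u')| ≤ η / 16 * h := by
    rw [abs_mul]
    have f2 : |σ| * |u - u'| ≤ |σ| * (c' * h) := mul_le_mul_of_nonneg_left k2'.le (abs_nonneg _)
    have f3 : |σ| * (c' * h) = |σ| * c' * h := by ring
    have f4 := mul_le_mul_of_nonneg_right hcσ hh.le
    linarith
  have e3 : |c u * (u - u')| ≤ η / 16 * h := by
    rw [abs_mul]
    have f2 : |c u| * |u - u'| ≤ |c u| * (c' * h) := mul_le_mul_of_nonneg_left k2'.le (abs_nonneg _)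
    have f3 : |c u| * (c' * h) = |c u| * c' * h := by ring
    have f4 := mul_le_mul_of_nonneg_right hcc hh.le
    linarith
  have e4 : c' * h ≤ η / 16 * h := mul_le_mul_of_nonneg_right hc1 hh.le
  have hηh : 0 < η * h := by positivity
  have hηh1 : η * h ≤ h := by nlinarith
  have hres := htr u' hu' (by
      have : c' * h ≤ (C' + c') * h := mul_le_mul_of_nonneg_right (by linarith) hh.le
      linarith) yc' (by
      have f1 := abs_sub_le yc' yc y
      have f2 : h * (C' + c') = C' * h + c' * h := by ring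
      linarith) h hh g1 (x₀ + (u' - u)) (by
      have : x₀ + (u' - u) - u' = x₀ - u := by ring
      rw [this]; exact hx₀) (by
      intro t w a1 a2 a3 a4 a5
      have b1 : |w.re - x₀| < η * h := by
        have f1 := abs_sub_le w.re (x₀ + (u' - u)) x₀
        have f2 : x₀ + (u' - u) - x₀ = u' - u := by ring
        rw [f2] at f1
        linarith
      have b2 : |w.re - u'| ≤ h := by
        have f1 := abs_sub_le w.re (x₀ + (u' - u)) u'
        have f2 : x₀ + (u' - u) - u' = x₀ - u := by ring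
        rw [f2] at f1
        linarith
      have b3 : |t.re - (yc - c u * h + σ * (w.re - u))| < η * h := by
        have f1 : t.re - (yc - c u * h + σ * (w.re - u)) =
          (t.re - (yc' - c u' * h + σ * (w.re - u'))) + ((yc' - yc) + (-((c u' - c u) * h) +
            σ * (u - u'))) := by ring
        rw [f1]
        have f2 := abs_add_le (t.re - (yc' - c u' * h + σ * (w.re - u')))
          ((yc' - yc) + (-((c u' - c u) * h) + σ * (u - u')))
        have f3 := abs_add_le (yc' - yc) (-((c u' - c u) * h) + σ * (u - u'))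
        have f4 := abs_add_le (-((c u' - c u) * h)) (σ * (u - u'))
        have f5 : |-((c u' - c u) * h)| = |c u' - c u| * h := by
          rw [abs_neg, abs_mul, abs_of_pos hh]
        linarith
      apply hcon t w a1 b1 b3 a4
      have f1 : (c u' - c u) * (w.re - u') ≤ η / 16 * h := by
        refine (le_abs_self _).trans ?_
        rw [abs_mul]
        exact (mul_le_mul_of_nonneg_left b2 (abs_nonneg _)).trans e1
      have f2 : c u' * (w.re - u') = c u * (w.re - u) + ((c u' - c u) * (w.re - u') +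
        c u * (u - u')) := by ring
      have f3 := (abs_le.1 e3).2
      have f4 := (abs_le.1 hLu).2
      linarith)
  exact hnr (hres.mono hq2.le)

/-- **the world at almost every fixed point** -/
theorem ae_layP {Mj Mk : Set (ℂ × ℂ)} {b m : ℝ} {Ψ : ℂ → ℂ} {A : Set ℝ} {P : ℝ → ℂ}
    {c k : ℝ → ℝ} (hMj : RH b Mj) (hUj : CmpU Mj b m Ψ A P c k) (hbm : b < m)
    (hR : ContinuousOn (fun u => (P u).im) A) (hc : ContinuousOn c A)
    (hbP : ∀ u ∈ A, b < (P u).im) {L d₁ : ℝ} (hd₁ : 0 < d₁)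
    (hL : ∀ u ∈ A, ∀ u' ∈ A, |u' - u| < d₁ → |(P u').im - (P u).im| ≤ L * |u' - u|)
    {y₁ y₂ : ℝ} {s s' c' Λ' r' : ℝ} (hc' : 0 < c') (hr' : 0 < r')
    (hdrop : ∀ u ∈ A, ∀ y : ℝ, y₁ < y → y < y₂ → ∀ r : ℝ, 0 < r → r < r' →
      ¬ Win b u (P u).im (c u) y r s' c' Λ' ⊆ Mj)
    (hwin : ∀ u ∈ A, ∀ y : ℝ, y₁ < y → y < y₂ → ∀ δ > 0, RegB Mk b A P c y u (s - δ)) :
    volume {p : ℝ × ℝ | (y₁ < p.1 ∧ p.1 < y₂) ∧ p.2 ∈ A ∧
      ¬ ∃ σ : ℝ, σ ≤ s' ∧ LayP Mj Mk b A P c p.1 p.2 σ s} = 0 := by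
  set F : ℚ → Set (ℝ × ℝ) := fun q =>
    {p : ℝ × ℝ | p.2 ∈ A ∧ ¬ RegB Mj b A P c p.1 p.2 q} with hFdef
  set N : ℚ → Set (ℝ × ℝ) := fun q => {e : ℝ × ℝ | ¬ ∀ c C : ℝ, 0 < c → 0 ≤ C →
      ∀ᶠ r in 𝓝[>] (0 : ℝ), ∀ x, dist x e ≤ C * r → (ball x (c * r) ∩ F q).Nonempty} ∩ F q with hN
  have hN0 : ∀ q, volume (N q) = 0 := by
    intro q
    have h1 := H410.ae_meets (volume : Measure (ℝ × ℝ)) (F q)
    rw [ae_iff] at h1
    exact le_antisymm ((Measure.le_restrict_apply _ _).trans h1.le) bot_le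
  refine measure_mono_null ?_ (measure_iUnion_null hN0)
  rintro ⟨y, u⟩ ⟨⟨hy1, hy2⟩, hu, hno⟩
  simp only at hy1 hy2 hu hno
  by_contra hout
  rw [mem_iUnion] at hout
  push Not at hout
  apply hno
  have hub : ∀ s : ℝ, RegB Mj b A P c y u s → s ≤ s' := by
    intro s hs
    by_contra hcon
    push Not at hcon
    obtain ⟨d, hd, h⟩ := hs
    obtain ⟨r₀, hr₀, h⟩ := h c' hc' Λ'
    have h1 := h u hu (by simpa using hd) y (by simpa using hd) (min r₀ r' / 2) (by positivity)
      (by have := min_le_left r₀ r'; have : 0 < min r₀ r' := by positivity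
          linarith)
    apply hdrop u hu y hy1 hy2 (min r₀ r' / 2) (by positivity)
      (by have := min_le_right r₀ r'; have : 0 < min r₀ r' := by positivity
          linarith)
    exact (win_mono (le_refl _) (le_refl _) hcon.le (by positivity) hc').trans h1
  obtain ⟨sb, hsb⟩ := base_reg hUj
  set σ : ℝ := sSup {s : ℝ | RegB Mj b A P c y u s} with hσ
  have hbdd : BddAbove {s : ℝ | RegB Mj b A P c y u s} := ⟨s', hub⟩
  have hnes : {s : ℝ | RegB Mj b A P c y u s}.Nonempty := ⟨sb, hsb y u⟩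
  have hreg : ∀ δ > 0, RegB Mj b A P c y u (σ - δ) := by
    intro δ hδ
    obtain ⟨s, hs, hs'⟩ := exists_lt_of_lt_csSup hnes (show σ - δ < σ by linarith)
    exact RegB.mono hs hs'.le
  refine ⟨σ, csSup_le hnes hub, ⟨hMj.dn, hu, hR, hc, hbP u hu, hreg, hwin u hu y hy1 hy2, ?_⟩⟩
  refine tchP_of hMj hUj hbm hR hc hu hd₁ (hL u hu) hreg (F := F) (fun q p hp => hp) ?_
  intro q hq
  have hqF : ((y, u) : ℝ × ℝ) ∈ F q := by
    refine ⟨hu, fun h => ?_⟩
    have := le_csSup hbdd (show (q : ℝ) ∈ {s : ℝ | RegB Mj b A P c y u s} from h)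
    linarith
  by_contra hcon
  exact hout q ⟨fun h => hcon h, hqF⟩

end Vale.Agent.P097.H308
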